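import Vale.Agent.P046.Fin

namespace Vale.Agent.Results.P046.Constant

open Vale.Agent.P046

theorem result :
    (∀ ε : ℝ, 0 < ε → Filter.Tendsto (fun n : ℕ => (law n).toMeasure
        {m : ℕ | ε ≤ |(m : ℝ) / (n : ℝ) ^ (3 / 2 : ℝ) - 1 / (2 * √2)|}) Filter.atTop (nhds 0)) ∧
      Filter.Tendsto (fun n : ℕ => (∫ m, (m : ℝ) ∂(law n).toMeasure) / (n : ℝ) ^ (3 / 2 : ℝ))
        Filter.atTop (nhds (1 / (2 * √2))) :=
  result_of_L1 main_L1

end Vale.Agent.Results.P046.Constant
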